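import Vale.Agent.P369.Main

namespace Vale.Agent.Results.P369.EPnI

open Vale.Agent.P369

/-- The entropy photon-number inequality for all `n`-mode states of finite mean photon number. -/
theorem result (n : ℕ) (hn : 1 ≤ n)
    (H : Type) [NormedAddCommGroup H] [InnerProductSpace ℂ H] [CompleteSpace H]
    (K : Type) [NormedAddCommGroup K] [InnerProductSpace ℂ K] [CompleteSpace K]
    (e : HilbertBasis (Occ n) ℂ H) (f : HilbertBasis (Occ n × Occ n) ℂ K)
    (η : ℝ) (hη0 : 0 ≤ η) (hη1 : η ≤ 1)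
    (ρA ρB : H →L[ℂ] H) (hA : IsState e ρA) (hB : IsState e ρB)
    (eA : FiniteEnergy e ρA) (eB : FiniteEnergy e ρB) :
    (∀ y : ℝ, 0 ≤ y → 0 ≤ ginv y ∧ g (ginv y) = y) ∧
    (∃ (σ U : K →L[ℂ] K) (ρC : H →L[ℂ] H),
        IsTensor e f ρA ρB σ ∧ IsBeamSplitter f η U ∧ IsReduced e f (U * σ * star U) ρC) ∧
    ∀ (σ U : K →L[ℂ] K) (ρC : H →L[ℂ] H),
      IsTensor e f ρA ρB σ → IsBeamSplitter f η U → IsReduced e f (U * σ * star U) ρC →
        IsState e ρC ∧ FiniteEnergy e ρC ∧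
        Summable (entropyTerm e ρA) ∧ Summable (entropyTerm e ρB) ∧ Summable (entropyTerm e ρC) ∧
        η * photonN e ρA + (1 - η) * photonN e ρB ≤ photonN e ρC :=
  ⟨fun _ hy => ginv_spec hy, epni n hn H K e f η hη0 hη1 ρA ρB hA hB eA eB⟩

end Vale.Agent.Results.P369.EPnI
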